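import Vale.Agent.Lib.P335.TableChain

namespace Vale.Agent.Results.P335.Bipartite

open Finset BigOperators Vale.Agent.Lib.P335

/-- The lazy switch chain on binary `m × n` tables with arbitrary margins (bipartite graphs with an
arbitrary fixed degree sequence) is within total variation `1/4` of uniform from every start after
`(m n)^2 (m n + 2)` steps. -/
theorem result {ι κ : Type*} [Fintype ι] [DecidableEq ι] [Fintype κ] [DecidableEq κ]
    (hm : 2 ≤ Fintype.card ι) (hn : 2 ≤ Fintype.card κ) (r : ι → ℕ) (c : κ → ℕ)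
    (T : ι → Finset κ) (hT : T ∈ Tables r c) (t : ℕ)
    (ht : (Fintype.card ι * Fintype.card κ) ^ 2 * (Fintype.card ι * Fintype.card κ + 2) ≤ t) :
    (1 / 2) * ∑ U ∈ Tables r c, |(tableKernel ι κ ^ t) T U - 1 / ((Tables r c).card : ℝ)| ≤ 1 / 4 :=
  table_mixing hm hn r c hT ht

end Vale.Agent.Results.P335.Bipartite
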