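import Vale.Agent.Lib.P335.Poincare

namespace Vale.Agent.Results.P335.BipartiteGap

open Finset BigOperators Vale.Agent.Lib.P335

/-- Poincare inequality for the switch graph on all binary tables with given margins, that is, on
all bipartite graphs with a given degree sequence: the energy, with each unordered switch edge
counted four times (data `(T, x, y, j, l)`), is at least eight times the variance. -/
theorem result {ι κ : Type*} [Fintype ι] [DecidableEq ι] [Fintype κ] [DecidableEq κ]
    (r : ι → ℕ) (c : κ → ℕ) (f : (ι → Finset κ) → ℝ) :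
    8 * ∑ T ∈ Tables r c, (f T - (∑ U ∈ Tables r c, f U) / ((Tables r c).card : ℝ)) ^ 2
      ≤ ∑ T ∈ Tables r c, ∑ x, ∑ y, if x ≠ y then
          ∑ j ∈ T x \ T y, ∑ l ∈ T y \ T x, (f T - f (sw T x y j l)) ^ 2 else 0 := by
  refine le_trans (tables_poincare r c f) (le_of_eq ?_)
  symm
  calc ∑ T ∈ Tables r c, ∑ x, ∑ y, (if x ≠ y then
          ∑ j ∈ T x \ T y, ∑ l ∈ T y \ T x, (f T - f (sw T x y j l)) ^ 2 else 0)
      = ∑ x, ∑ T ∈ Tables r c, ∑ y, (if x ≠ y then
          ∑ j ∈ T x \ T y, ∑ l ∈ T y \ T x, (f T - f (sw T x y j l)) ^ 2 else 0) := Finset.sum_comm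
    _ = ∑ x, ∑ y, ∑ T ∈ Tables r c, (if x ≠ y then
          ∑ j ∈ T x \ T y, ∑ l ∈ T y \ T x, (f T - f (sw T x y j l)) ^ 2 else 0) :=
        Finset.sum_congr rfl (fun _ _ => Finset.sum_comm)
    _ = ∑ x, ∑ y, if x ≠ y then pairE r c x y f else 0 := by
        apply Finset.sum_congr rfl; intro x _
        apply Finset.sum_congr rfl; intro y _
        split_ifs
        · rfl
        · simp

end Vale.Agent.Results.P335.BipartiteGap
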