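import Vale.Agent.Lib.KTV.Main

namespace Vale.Agent.Results.P335.KTV

open Finset BigOperators Vale.Agent.Lib.P335

/-- The Kannan-Tetali-Vempala conjecture for simple graphs. Let `n ≥ 4` and let `d` be any degree
vector on `n` labeled vertices. Then the switch chain `P_d` of the problem is within total variation
`1/4` of the uniform law on `Omega d` after `n^6` steps from every start: `t_mix(d) ≤ n^6`. -/
theorem result {n : ℕ} (hn : 4 ≤ n) (d : Fin n → ℕ) :
    (∀ G ∈ Omega d, ∀ t, n ^ 6 ≤ t → tvDist d t G ≤ 1 / 4) ∧ tmix d ≤ n ^ 6 := by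
  have h : ∀ G ∈ Omega d, ∀ t, n ^ 6 ≤ t → tvDist d t G ≤ 1 / 4 :=
    fun G hG t ht => _root_.KTV.ktv_mixing hn d hG ht
  refine ⟨h, ?_⟩
  apply Nat.sInf_le
  intro G hG
  exact h G hG _ le_rfl

end Vale.Agent.Results.P335.KTV
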