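import Vale.Agent.Lib.P335.SplitMix

namespace Vale.Agent.Results.P335.SplitGraphs

open Finset BigOperators Vale.Agent.Lib.P335

/-- Let `n ≥ 4` and let `d` be a degree vector with a realization `G₀` that is a split graph, with
clique `R` and independent set the complement of `R`. Then the switch chain `P_d` of the problem is
within total variation `1/4` of uniform after `n^6` steps from every start: `t_mix(d) ≤ n^6`. -/
theorem result {n : ℕ} (hn : 4 ≤ n) (d : Fin n → ℕ) (R : Finset (Fin n)) (G₀ : EdgeSet n)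
    (hG₀ : G₀ ∈ Omega d) (hcl : ∀ x ∈ R, ∀ y ∈ R, x ≠ y → s(x, y) ∈ G₀)
    (hin : ∀ x, x ∉ R → ∀ y, y ∉ R → s(x, y) ∉ G₀) :
    (∀ G ∈ Omega d, ∀ t, n ^ 6 ≤ t → tvDist d t G ≤ 1 / 4) ∧ tmix d ≤ n ^ 6 := by
  have h : ∀ G ∈ Omega d, ∀ t, n ^ 6 ≤ t → tvDist d t G ≤ 1 / 4 :=
    fun G hG t ht => split_mixing hn hG₀ hcl hin hG ht
  refine ⟨h, ?_⟩
  apply Nat.sInf_le
  intro G hG
  exact h G hG _ le_rfl

end Vale.Agent.Results.P335.SplitGraphs
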